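import Vale.Agent.P180.R2.H471.Au10

/-!
P180: a graph automorphism of a special linear group of odd dimension over a field `K`, `4` dividing
`|K| - 1`, does not act trivially on a defect group of a `2`-block.
-/

set_option linter.all false

namespace Vale.Agent.P180.R2.H259.Tg

open Polynomial Module Vale.Agent.P180.R2.H471.Au

/-- An automorphism of a finite field `K`, `4` dividing `|K| - 1`, does not invert all elements of
order a power of two. -/
theorem no_inv {K : Type*} [Field K] [Finite K] (h4 : 4 ∣ Nat.card K - 1) (σ : K →+* K) :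
    ∃ ω : K, (∃ j, ω ^ 2 ^ j = 1) ∧ σ ω * ω ≠ 1 := by
  classical
  by_contra hcon
  push Not at hcon
  have hall : ∀ ω : K, (∃ j, ω ^ 2 ^ j = 1) → σ ω * ω = 1 := fun ω h => hcon ω h
  have hN0 : Nat.card K - 1 ≠ 0 := by
    have h1 : 1 < Nat.card K := Finite.one_lt_card
    omega
  obtain ⟨a, m, hm, hq⟩ := Nat.exists_eq_pow_mul_and_not_dvd hN0 2 (by norm_num)
  have ha : 2 ≤ a := by
    by_contra hlt
    have h1 : a = 0 ∨ a = 1 := by omega
    rcases h1 with rfl | rfl
    · rw [pow_zero, one_mul] at hq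
      exact hm ((by norm_num : (2 : ℕ) ∣ 4).trans (hq ▸ h4))
    · rw [pow_one] at hq
      rw [hq] at h4
      have h2 : (2 : ℕ) * 2 ∣ 2 * m := h4
      exact hm ((Nat.mul_dvd_mul_iff_left (by norm_num)).mp h2)
  obtain ⟨γ, hγ⟩ := IsCyclic.exists_ofOrder_eq_natCard (α := Kˣ)
  rw [Nat.card_units, hq] at hγ
  have hm0 : m ≠ 0 := by
    rintro rfl
    exact hm (dvd_zero 2)
  set ω : Kˣ := γ ^ m with hω
  have hord : orderOf ω = 2 ^ a := by
    rw [hω, orderOf_pow' _ hm0, hγ, Nat.gcd_mul_left_left, Nat.mul_div_cancel _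
      (Nat.pos_of_ne_zero hm0)]
  have hω1 : ω ^ 2 ^ a = 1 := by rw [← hord]; exact pow_orderOf_eq_one ω
  have hσω : σ (ω : K) * ω = 1 := hall _ ⟨a, by rw [← Units.val_pow_eq_pow_val, hω1, Units.val_one]⟩
  -- `z = 1 + ω`
  have hz0 : (1 : K) + ω ≠ 0 := by
    intro h
    have h1 : (ω : K) = -1 := by
      rw [add_comm] at h
      exact eq_neg_of_add_eq_zero_left h
    have h2 : ω ^ 2 = 1 := by
      apply Units.ext
      rw [Units.val_pow_eq_pow_val, h1, Units.val_one]
      ring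
    have h3 := orderOf_dvd_of_pow_eq_one h2
    rw [hord] at h3
    have h5 : (2 : ℕ) ^ 2 ∣ 2 ^ a := pow_dvd_pow 2 ha
    have h6 := Nat.le_of_dvd (by norm_num) (h5.trans h3)
    omega
  set z : Kˣ := Units.mk0 (1 + (ω : K)) hz0 with hz
  have hσz : σ (z : K) * ω = z := by
    rw [hz, Units.val_mk0, map_add, map_one, add_mul, hσω, one_mul, add_comm]
  have hzN : z ^ (2 ^ a * m) = 1 := by
    rw [← hq, ← Nat.card_units]
    exact pow_card_eq_one'
  have hσzm : σ ((z : K) ^ m) * (z : K) ^ m = 1 := by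
    refine hall _ ⟨a, ?_⟩
    rw [← pow_mul, mul_comm m, ← Units.val_pow_eq_pow_val, hzN, Units.val_one]
  have h1 : (z : K) ^ m * (z : K) ^ m = (ω : K) ^ m := by
    have h2 : (z : K) ^ m = σ ((z : K) ^ m) * (ω : K) ^ m := by
      rw [map_pow, ← mul_pow, hσz]
    calc (z : K) ^ m * (z : K) ^ m = (σ ((z : K) ^ m) * (ω : K) ^ m) * (z : K) ^ m := by
          rw [← h2]
      _ = (σ ((z : K) ^ m) * (z : K) ^ m) * (ω : K) ^ m := by ring
      _ = _ := by rw [hσzm, one_mul]
  have h2 : z ^ (2 * m) = ω ^ m := by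
    apply Units.ext
    rw [Units.val_pow_eq_pow_val, Units.val_pow_eq_pow_val, two_mul, pow_add]
    exact h1
  have h3 : ω ^ (m * 2 ^ (a - 1)) = 1 := by
    rw [pow_mul, ← h2, ← pow_mul]
    have h4' : 2 * m * 2 ^ (a - 1) = 2 ^ a * m := by
      obtain ⟨b, rfl⟩ : ∃ b, a = b + 1 := ⟨a - 1, by omega⟩
      rw [Nat.add_sub_cancel]
      ring
    rw [h4', hzN]
  have h5 := orderOf_dvd_of_pow_eq_one h3
  rw [hord] at h5
  obtain ⟨b, rfl⟩ : ∃ b, a = b + 1 := ⟨a - 1, by omega⟩
  rw [Nat.add_sub_cancel, pow_succ, mul_comm m] at h5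
  exact hm ((Nat.mul_dvd_mul_iff_left (pow_pos (by norm_num) b)).mp h5)

variable {K : Type*} [Field K] {V : Type*} [AddCommGroup V] [Module K V]
variable [FiniteDimensional K V] [Finite K]

/-- **No graph automorphisms.** -/
theorem no_graph (h4 : 4 ∣ Nat.card K - 1) (hd : ¬ 2 ∣ finrank K V)
    {Q : Subgroup (SpecialLinearGroup K V)} (hQp : IsPGroup 2 Q) (hQ1 : Q ≠ ⊥)
    (hQ : PClosed 2 Q) {σ : K →+* K} {β : V → V → K}
    (ha1 : ∀ x y z, β (x + y) z = β x z + β y z) (hs1 : ∀ (c : K) x y, β (c • x) y = σ c * β x y)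
    (ha2 : ∀ x y z, β x (y + z) = β x y + β x z) (hs2 : ∀ (c : K) x y, β x (c • y) = c * β x y)
    (hnd : ∀ x, x ≠ 0 → ∃ y, β x y ≠ 0)
    (hβ : ∀ w ∈ Q, ∀ x y, β (w x) (w y) = β x y) : False := by
  classical
  have : Fact (Nat.Prime 2) := ⟨Nat.prime_two⟩
  have hcop : ¬ (2 ∣ finrank K V ∧ 2 ∣ Nat.card K - 1) := fun h => hd h.1
  have h20 : (2 : K) ≠ 0 := by
    intro h
    have h1 : CharP K 2 := (CharP.charP_iff_prime_eq_zero Nat.prime_two).mpr (by exact_mod_cast h)
    have h2 : 2 ∣ Nat.card K := by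
      have := Fintype.ofFinite K
      rw [Nat.card_eq_fintype_card]
      obtain ⟨n, -, hn⟩ := FiniteField.card K 2
      rw [hn]
      exact dvd_pow_self 2 n.pos.ne'
    have h3 : 2 ∣ Nat.card K - 1 := (by norm_num : (2 : ℕ) ∣ 4).trans h4
    have h4 : 1 < Nat.card K := Finite.one_lt_card
    have h5 := Nat.dvd_sub h2 h3
    rw [Nat.sub_sub_self h4.le] at h5
    exact absurd (Nat.le_of_dvd Nat.one_pos h5) (by norm_num)
  obtain ⟨u, hu, hup, hu1⟩ := exists_order_p (p := 2) hQp hQ1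
  have huu : ∀ v, u (u v) = v := by
    intro v
    have h1 : (u ^ 2) v = u (u v) := by rw [pow_two]; rfl
    rw [← h1, hup]
    rfl
  -- eigenvectors
  obtain ⟨xm, hxm0, hxm⟩ : ∃ x : V, x ≠ 0 ∧ u x = -x := by
    obtain ⟨v, hv⟩ : ∃ v, u v ≠ v := by
      by_contra hcon
      push Not at hcon
      exact hu1 (Subtype.ext (LinearEquiv.ext hcon))
    refine ⟨u v - v, sub_ne_zero.mpr hv, ?_⟩
    have h1 : u (u v - v) = u (u v) - u v := map_sub (u : V ≃ₗ[K] V) _ _
    rw [h1, huu, neg_sub]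
  obtain ⟨xp, hxp0, hxp⟩ : ∃ x : V, x ≠ 0 ∧ u x = x := by
    by_contra hcon
    push Not at hcon
    have h1 : ∀ v, u v = -v := by
      intro v
      by_contra hne
      refine hcon (u v + v) (fun h => hne (eq_neg_of_add_eq_zero_left h)) ?_
      have h1 : u (u v + v) = u (u v) + u v := map_add (u : V ≃ₗ[K] V) _ _
      exact h1.trans (by rw [huu, add_comm])
    have h2 : LinearMap.det (en u) = 1 := by
      have h2 := congrArg Units.val u.2
      rw [LinearEquiv.coe_det] at h2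
      exact h2
    have h3 : en u = (-1 : K) • (1 : Module.End K V) := by
      apply LinearMap.ext
      intro v
      rw [LinearMap.smul_apply, Module.End.one_apply, neg_one_smul]
      exact h1 v
    rw [h3, LinearMap.det_smul, map_one, mul_one] at h2
    have h5 : Odd (finrank K V) := by
      rw [← Nat.not_even_iff_odd, even_iff_two_dvd]
      exact hd
    rw [h5.neg_one_pow] at h2
    apply h20
    have h6 : (1 : K) + 1 = 0 := by
      nth_rewrite 1 [← h2]
      exact neg_add_cancel 1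
    rw [← h6]
    norm_num
  obtain ⟨ω, ⟨j, hj⟩, hne⟩ := no_inv h4 σ
  apply hne
  -- the polynomial
  set φ : K → Module.End K V := fun ω => (2 : K)⁻¹ • ((1 + ω) • (1 : Module.End K V) +
    (1 - ω) • en u) with hφ
  have hUU : en u * en u = 1 := by
    apply LinearMap.ext
    intro v
    exact huu v
  have hφm : ∀ a b, φ a * φ b = φ (a * b) := by
    intro a b
    simp only [hφ]
    rw [smul_mul_smul_comm]
    have e1 : ((1 + a) • (1 : Module.End K V) + (1 - a) • en u) *
        ((1 + b) • (1 : Module.End K V) + (1 - b) • en u) =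
        ((1 + a) * (1 + b) + (1 - a) * (1 - b)) • (1 : Module.End K V) +
          ((1 + a) * (1 - b) + (1 - a) * (1 + b)) • en u := by
      rw [add_mul, mul_add, mul_add, smul_mul_smul_comm, smul_mul_smul_comm, smul_mul_smul_comm,
        smul_mul_smul_comm, one_mul, one_mul, mul_one, hUU, add_smul, add_smul]
      abel
    rw [e1]
    have e2 : (1 + a) * (1 + b) + (1 - a) * (1 - b) = 2 * (1 + a * b) := by ring
    have e3 : (1 + a) * (1 - b) + (1 - a) * (1 + b) = 2 * (1 - a * b) := by ring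
    have e4 : ∀ x : K, (2 : K)⁻¹ * 2⁻¹ * (2 * x) = 2⁻¹ * x := by
      intro x
      field_simp
    rw [e2, e3, smul_add, smul_add, smul_smul, smul_smul, smul_smul, smul_smul, e4, e4]
  have hφ1 : φ 1 = 1 := by
    simp only [hφ]
    rw [sub_self, zero_smul, add_zero, smul_smul]
    have e1 : (2 : K)⁻¹ * (1 + 1) = 1 := by
      rw [one_add_one_eq_two, inv_mul_cancel₀ h20]
    rw [e1, one_smul]
  have hφp : ∀ m : ℕ, φ ω ^ m = φ (ω ^ m) := by
    intro m
    induction m with
    | zero => rw [pow_zero, pow_zero, hφ1]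
    | succ m ih => rw [pow_succ, ih, hφm, pow_succ]
  set H : K[X] := C (2 : K)⁻¹ * (C (1 + ω) + C (1 - ω) * X) with hH
  have hHφ : aeval (en u) H = φ ω := by
    rw [hH, map_mul, map_add, map_mul, aeval_C, aeval_C, aeval_C, aeval_X,
      Algebra.algebraMap_eq_smul_one, Algebra.algebraMap_eq_smul_one,
      Algebra.algebraMap_eq_smul_one, smul_mul_assoc, one_mul, smul_mul_assoc, one_mul]
  obtain ⟨l, -, w, hw, hwe⟩ := exists_mem_Q (p := 2) hcop hQ hu (H := H) (j := j) (by
    rw [hHφ, hφp, hj, hφ1])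
  have hCl : en w = (l : K) • φ ω := by
    rw [hwe, map_mul, aeval_C, ← Algebra.smul_def, hHφ]
  have hwp : ∀ x, u x = x → w x = (l : K) • x := by
    intro x hx
    have h1 : w x = ((l : K) • φ ω) x := LinearMap.congr_fun hCl x
    have h2 : φ ω x = x := by
      have h3 : φ ω x = (2 : K)⁻¹ • ((1 + ω) • x + (1 - ω) • (u x)) := rfl
      rw [h3, hx, ← add_smul]
      have e1 : (1 + ω) + (1 - ω) = 2 := by ring
      rw [e1, smul_smul, inv_mul_cancel₀ h20, one_smul]
    rw [h1, LinearMap.smul_apply, h2]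
  have hwm : ∀ x, u x = -x → w x = ((l : K) * ω) • x := by
    intro x hx
    have h1 : w x = ((l : K) • φ ω) x := LinearMap.congr_fun hCl x
    have h2 : φ ω x = ω • x := by
      have h3 : φ ω x = (2 : K)⁻¹ • ((1 + ω) • x + (1 - ω) • (u x)) := rfl
      rw [h3, hx, smul_neg, ← sub_eq_add_neg, ← sub_smul]
      have e1 : (1 + ω) - (1 - ω) = 2 * ω := by ring
      rw [e1, smul_smul, ← mul_assoc, inv_mul_cancel₀ h20, one_mul]
    rw [h1, LinearMap.smul_apply, h2, smul_smul]
  have h01 : ∀ x, β x 0 = 0 := by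
    intro x
    have h1 := hs2 0 x 0
    rwa [zero_smul, zero_mul] at h1
  have hneg : ∀ x y, β x (-y) = -β x y := by
    intro x y
    rw [← neg_one_smul K, hs2, neg_one_mul]
  have hneg1 : ∀ x y, β (-x) y = -β x y := by
    intro x y
    rw [← neg_one_smul K, hs1, map_neg, map_one, neg_one_mul]
  -- first eigenspace
  have hl : σ (l : K) * l = 1 := by
    obtain ⟨y, hy⟩ := hnd xp hxp0
    have e1 : β xp (u y) = β xp y := by
      have h1 := hβ u hu xp y
      rwa [hxp] at h1
    have e2 : β xp (y + u y) ≠ 0 := by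
      rw [ha2, e1, ← two_mul]
      exact mul_ne_zero h20 hy
    have e3 : u (y + u y) = y + u y := by
      have h1 : u (y + u y) = u y + u (u y) := map_add (u : V ≃ₗ[K] V) _ _
      rw [h1, huu, add_comm]
    have h1 := hβ w hw xp (y + u y)
    rw [hwp xp hxp, hwp _ e3, hs1, hs2, ← mul_assoc] at h1
    exact mul_right_cancel₀ e2 (by rw [h1, one_mul])
  have hlω : σ ((l : K) * ω) * (l * ω) = 1 := by
    obtain ⟨y, hy⟩ := hnd xm hxm0
    have e1 : β xm (u y) = -β xm y := by
      have h1 := hβ u hu xm y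
      rw [hxm, hneg1] at h1
      rw [← h1, neg_neg]
    have e2 : β xm (y + -(u y)) ≠ 0 := by
      rw [ha2, hneg, e1, neg_neg, ← two_mul]
      exact mul_ne_zero h20 hy
    have e3 : u (y + -(u y)) = -(y + -(u y)) := by
      have h1 : u (y + -(u y)) = u y + -(u (u y)) := by
        have h2 : u (y + -(u y)) = u y + u (-(u y)) := map_add (u : V ≃ₗ[K] V) _ _
        have h3 : u (-(u y)) = -(u (u y)) := map_neg (u : V ≃ₗ[K] V) _
        rw [h2, h3]
      rw [h1, huu, neg_add, neg_neg, add_comm]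
    have h1 := hβ w hw xm (y + -(u y))
    rw [hwm xm hxm, hwm _ e3, hs1, hs2, ← mul_assoc] at h1
    exact mul_right_cancel₀ e2 (by rw [h1, one_mul])
  rw [map_mul] at hlω
  have h1 : σ (l : K) * σ ω * (l * ω) = (σ (l : K) * l) * (σ ω * ω) := by ring
  rw [h1, hl, one_mul] at hlω
  exact hlω

end Vale.Agent.P180.R2.H259.Tg
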