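import Vale.Agent.P180.R2.H471.Au6

/-!
P180: automorphisms of central quotients of `SL(n, K)`, `n ≥ 3`, `K` finite: semilinear or the
composition of a semilinear one with the inverse transpose.
-/

set_option linter.all false

namespace Vale.Agent.P180.R2.H259.Tg

open Matrix Subgroup Module
open scoped commutatorElement
open Vale.Agent.P180.R2.H589.Sch Vale.Agent.P180.R2.H589.Bt Vale.Agent.P180.R2.H471.Au

section Gi

variable {K : Type*} [Field K] {N : ℕ}

/-- the inverse transpose -/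
def gi (N : ℕ) (K : Type*) [Field K] : GS N K →* GS N K where
  toFun g := ⟨(((g⁻¹ : GS N K) : Matrix (Fin N) (Fin N) K))ᵀ, by
    rw [det_transpose]; exact (g⁻¹ : GS N K).2⟩
  map_one' := by
    apply Subtype.ext
    change (((1⁻¹ : GS N K) : Matrix (Fin N) (Fin N) K))ᵀ = 1
    rw [inv_one]
    exact transpose_one
  map_mul' g h := by
    apply Subtype.ext
    change ((((g * h)⁻¹ : GS N K) : Matrix (Fin N) (Fin N) K))ᵀ =
      (((g⁻¹ : GS N K) : Matrix (Fin N) (Fin N) K))ᵀ *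
        (((h⁻¹ : GS N K) : Matrix (Fin N) (Fin N) K))ᵀ
    rw [_root_.mul_inv_rev]
    exact transpose_mul _ _

theorem dot_ext {x y : Fin N → K} (h : ∀ z, x ⬝ᵥ z = y ⬝ᵥ z) : x = y := by
  funext j
  have h1 := h (Pi.single j 1)
  rwa [dotProduct_single, dotProduct_single, mul_one, mul_one] at h1

theorem coe_gi (g : GS N K) : ((gi N K g : GS N K) : Matrix (Fin N) (Fin N) K) =
    (((g⁻¹ : GS N K) : Matrix (Fin N) (Fin N) K))ᵀ := rfl

theorem gi_dot (g : GS N K) (x z : Fin N → K) :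
    (((gi N K g : GS N K) : Matrix (Fin N) (Fin N) K) *ᵥ x) ⬝ᵥ z =
      x ⬝ᵥ (((g⁻¹ : GS N K) : Matrix (Fin N) (Fin N) K) *ᵥ z) := by
  rw [coe_gi, mulVec_transpose, dotProduct_mulVec]

theorem gi_gi (g : GS N K) : gi N K (gi N K g) = g := by
  apply Subtype.ext
  rw [coe_gi, ← map_inv, coe_gi, inv_inv, transpose_transpose]

theorem gi_surj : Function.Surjective (gi N K) := fun g => ⟨gi N K g, gi_gi g⟩

theorem gi_center {g : GS N K} (hg : g ∈ center (GS N K)) : gi N K g ∈ center (GS N K) := by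
  rw [mem_center_iff] at hg ⊢
  intro y
  obtain ⟨y, rfl⟩ := gi_surj y
  rw [← map_mul, ← map_mul, hg y]

theorem gi_center_iff {g : GS N K} : gi N K g ∈ center (GS N K) ↔ g ∈ center (GS N K) :=
  ⟨fun h => by rw [← gi_gi g]; exact gi_center h, gi_center⟩

end Gi

section T

variable {K : Type*} [Field K] {n : ℕ} {T : Type*} [Group T] {π : GS (n + 1) K →* T}

theorem exists_gT (hπ : Function.Surjective π) (hker : π.ker = center (GS (n + 1) K)) :
    ∃ γ : MulAut T, ∀ g, γ (π g) = π (gi (n + 1) K g) := by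
  have hle : π.ker ≤ (π.comp (gi (n + 1) K)).ker := by
    intro g hg
    rw [hker] at hg
    rw [MonoidHom.mem_ker, MonoidHom.comp_apply, ← MonoidHom.mem_ker, hker]
    exact gi_center hg
  let f : T →* T := (QuotientGroup.lift π.ker (π.comp (gi (n + 1) K)) hle).comp
    (QuotientGroup.quotientKerEquivOfSurjective π hπ).symm.toMonoidHom
  have hf : ∀ g, f (π g) = π (gi (n + 1) K g) := by
    intro g
    have h1 : (QuotientGroup.quotientKerEquivOfSurjective π hπ).symm (π g) =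
        (QuotientGroup.mk g : GS (n + 1) K ⧸ π.ker) := by
      rw [MulEquiv.symm_apply_eq]
      rfl
    change (QuotientGroup.lift π.ker (π.comp (gi (n + 1) K)) hle)
      ((QuotientGroup.quotientKerEquivOfSurjective π hπ).symm (π g)) = _
    rw [h1]
    rfl
  have hff : ∀ t, f (f t) = t := by
    intro t
    obtain ⟨g, rfl⟩ := hπ t
    rw [hf, hf, gi_gi]
  exact ⟨MulEquiv.mk' ⟨f, f, hff, hff⟩ fun x y => map_mul f x y, hf⟩

/-- the vector -/
def e0 (n : ℕ) (K : Type*) [Field K] : Fin (n + 1) → K := Pi.single 0 1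

theorem e0_ne : e0 n K ≠ 0 := by
  intro h
  have h1 := congrFun h 0
  rw [e0, Pi.single_eq_same] at h1
  exact one_ne_zero h1

theorem dot_e0 (x : Fin (n + 1) → K) : x ⬝ᵥ e0 n K = x 0 := by
  rw [e0, dotProduct_single, mul_one]

theorem gi_RW_H0 {r : GS (n + 1) K} (hr : r ∈ RW (H0 n K)) :
    gi (n + 1) K r ∈ RW (Submodule.span K {e0 n K}) := by
  have hr' : r⁻¹ ∈ RW (H0 n K) := Subgroup.inv_mem _ hr
  have h1 : nat (n + 1) K (gi (n + 1) K r) (e0 n K) = e0 n K := by
    apply dot_ext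
    intro z
    rw [nat_apply, gi_dot, dotProduct_comm, dot_e0, dotProduct_comm (e0 n K), dot_e0]
    have h2 : (nat (n + 1) K r⁻¹ z - z) 0 = 0 := hr'.2 z
    rw [Pi.sub_apply, sub_eq_zero] at h2
    exact h2
  refine ⟨fun w hw => ?_, fun x => ?_⟩
  · obtain ⟨c, rfl⟩ := Submodule.mem_span_singleton.mp hw
    rw [map_smul, h1]
  · rw [Submodule.mem_span_singleton]
    refine ⟨(nat (n + 1) K (gi (n + 1) K r) x - x) 0, ?_⟩
    funext j
    rw [Pi.smul_apply, smul_eq_mul]
    by_cases hj : j = 0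
    · rw [hj, e0, Pi.single_eq_same, mul_one]
    · rw [e0, Pi.single_eq_of_ne hj, mul_zero]
      have h2 : (Pi.single j 1 : Fin (n + 1) → K) ∈ H0 n K := by
        rw [mem_H0, Pi.single_eq_of_ne (Ne.symm hj)]
      have h3 : nat (n + 1) K r⁻¹ (Pi.single j 1) = Pi.single j 1 := hr'.1 _ h2
      have h4 : (nat (n + 1) K (gi (n + 1) K r) x) ⬝ᵥ (Pi.single j 1 : Fin (n + 1) → K) =
          x ⬝ᵥ (Pi.single j 1 : Fin (n + 1) → K) := by
        rw [nat_apply, gi_dot, ← nat_apply, h3]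
      rw [dotProduct_single, dotProduct_single, mul_one, mul_one] at h4
      rw [Pi.sub_apply, h4, sub_self]

theorem gi_RW_span {r : GS (n + 1) K} (hr : r ∈ RW (Submodule.span K {e0 n K})) :
    gi (n + 1) K r ∈ RW (H0 n K) := by
  have hr' : r⁻¹ ∈ RW (Submodule.span K {e0 n K}) := Subgroup.inv_mem _ hr
  refine ⟨fun w hw => ?_, fun x => ?_⟩
  · apply dot_ext
    intro z
    obtain ⟨c, hc⟩ := Submodule.mem_span_singleton.mp (hr'.2 z)
    have h1 : nat (n + 1) K r⁻¹ z = z + c • e0 n K := by rw [hc]; abel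
    have h2 : w 0 = 0 := hw
    rw [nat_apply, gi_dot, ← nat_apply, h1, dotProduct_add, dotProduct_smul, dot_e0, h2, smul_zero,
      add_zero]
  · rw [mem_H0, Pi.sub_apply, sub_eq_zero]
    have h3 : nat (n + 1) K r⁻¹ (e0 n K) = e0 n K :=
      hr'.1 _ (Submodule.mem_span_singleton_self _)
    have h4 : (nat (n + 1) K (gi (n + 1) K r) x) ⬝ᵥ e0 n K = x ⬝ᵥ e0 n K := by
      rw [nat_apply, gi_dot, ← nat_apply, h3]
    rwa [dot_e0, dot_e0] at h4

theorem gT_notMem [Finite K] (p : ℕ) [Fact p.Prime] [CharP K p] (hn : 2 ≤ n)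
    (hπ : Function.Surjective π) (hker : π.ker = center (GS (n + 1) K)) {γ : MulAut T}
    (hγ : ∀ g, γ (π g) = π (gi (n + 1) K g)) : γ ∉ HH π := by
  intro h
  obtain ⟨W', hW', h1⟩ := hyp_of_HH hπ h finrank_H0
  have h2 : ∀ t, t ∈ RT π W' ↔ t ∈ RT π (Submodule.span K {e0 n K}) := by
    intro t
    obtain ⟨t', rfl⟩ := γ.surjective t
    rw [h1]
    constructor
    · rintro ⟨r, hr, rfl⟩
      exact ⟨gi (n + 1) K r, gi_RW_H0 hr, (hγ r).symm⟩
    · rintro ⟨r, hr, hrt⟩
      refine ⟨gi (n + 1) K r, gi_RW_span hr, ?_⟩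
      apply γ.injective
      rw [hγ, gi_gi]
      exact hrt
  have h3 : W' = Submodule.span K {e0 n K} := by
    refine RT_inj p hker ?_ ?_ h2
    · rintro rfl
      rw [finrank_bot] at hW'
      omega
    · intro h4
      rw [Submodule.span_singleton_eq_bot] at h4
      exact e0_ne h4
  rw [h3, finrank_span_singleton e0_ne] at hW'
  omega

end T

variable {K : Type*} [Field K] {n : ℕ} {L : Type*} [Group L] {π : GS (n + 1) K →* L}

/-- **Automorphisms of central quotients of `SL(n + 1, K)`, `n ≥ 2`.** -/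
theorem semi_or_graph [Finite K] (hn : 2 ≤ n) (hπ : Function.Surjective π)
    (hk : π.ker ≤ center (GS (n + 1) K)) (α : MulAut L) :
    (∃ (X Y : Matrix (Fin (n + 1)) (Fin (n + 1)) K) (hXY : X * Y = 1) (σ : K →+* K),
      ∀ g, α (π g) = π (CJ hXY (Matrix.SpecialLinearGroup.map σ g))) ∨
    ∃ (X Y : Matrix (Fin (n + 1)) (Fin (n + 1)) K) (hXY : X * Y = 1) (σ : K →+* K),
      ∀ g, α (π g) = π (CJ hXY (Matrix.SpecialLinearGroup.map σ (gi (n + 1) K g))) := by
  haveI hp : Fact (ringChar K).Prime := ⟨CharP.char_is_prime K (ringChar K)⟩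
  set π' := (QuotientGroup.mk' (center L)).comp π with hπ'
  have hker := ker_mk hn hπ hk
  have hsurj : Function.Surjective π' := (QuotientGroup.mk'_surjective _).comp hπ
  have hker₁ : ∀ β : MulAut (L ⧸ center L), (β.toMonoidHom.comp π').ker =
      center (GS (n + 1) K) := by
    intro β
    rw [← hker]
    ext g
    rw [MonoidHom.mem_ker, MonoidHom.mem_ker, MonoidHom.comp_apply]
    exact map_eq_one_iff _ β.injective
  by_cases h : H589.autQ α ∈ HH π'
  · left
    obtain ⟨v, φ, c, hd⟩ := exists_dat (ringChar K) hn hsurj hker h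
    obtain ⟨X, Y, hXY, σ, hg⟩ := semi_of_dat (ringChar K) hn hker (hker₁ _) hd
    refine ⟨X, Y, hXY, σ, fun g => ?_⟩
    refine hom_eq (perfect_gs (K := K) hn) (f₁ := α.toMonoidHom.comp π)
      (f₂ := (π.comp (CJ hXY)).comp (Matrix.SpecialLinearGroup.map σ)) (fun x => ?_) g
    rw [← QuotientGroup.eq]
    exact hg x
  · right
    obtain ⟨γ, hγ⟩ := exists_gT hsurj hker
    have hγn := gT_notMem (ringChar K) hn hsurj hker hγ
    have h' : H589.autQ α * γ ∈ HH π' := by
      rw [HH_iff (ringChar K) hn hsurj hker]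
      exact ⟨fun h1 => absurd h1 h, fun h1 => absurd h1 hγn⟩
    obtain ⟨v, φ, c, hd⟩ := exists_dat (ringChar K) hn hsurj hker h'
    obtain ⟨X, Y, hXY, σ, hg⟩ := semi_of_dat (ringChar K) hn hker (hker₁ _) hd
    refine ⟨X, Y, hXY, σ, fun g => ?_⟩
    refine hom_eq (perfect_gs (K := K) hn) (f₁ := α.toMonoidHom.comp π)
      (f₂ := ((π.comp (CJ hXY)).comp (Matrix.SpecialLinearGroup.map σ)).comp (gi (n + 1) K))
      (fun x => ?_) g
    rw [← QuotientGroup.eq]
    have h1 := hg (gi (n + 1) K x)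
    have h2 : (H589.autQ α * γ) (π' (gi (n + 1) K x)) = H589.autQ α (π' x) := by
      rw [MulAut.mul_apply, hγ, gi_gi]
    have h3 : H589.autQ α (π' x) =
        π' (CJ hXY (Matrix.SpecialLinearGroup.map σ (gi (n + 1) K x))) := by
      rw [← h2]
      exact h1
    exact h3

end Vale.Agent.P180.R2.H259.Tg
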