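import Vale.Agent.P180.R2.H471.Au11
import Vale.Agent.P180.R2.H259.Tg.G2

/-!
P180: the action of an element of the normaliser of a central quotient of `SL(d, K)`: semilinear or
graph.
-/

set_option linter.all false

namespace Vale.Agent.P180.R2.H259.Tg

open Matrix Subgroup Module
open Vale.Agent.P180.R2.H589.Sch Vale.Agent.P180.R2.H589.Bt Vale.Agent.P180.R2.H471.Au

theorem map_gi_dot {K : Type*} [Field K] {N : ℕ} (σ : K →+* K) (x : GS N K) (v u : Fin N → K) :
    (fun i => σ (((x : Matrix (Fin N) (Fin N) K) *ᵥ v) i)) ⬝ᵥ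
      (σ.mapMatrix ((gi N K x : GS N K) : Matrix (Fin N) (Fin N) K) *ᵥ u) =
      (fun i => σ (v i)) ⬝ᵥ u := by
  have hmap : (fun i => σ (((x : Matrix (Fin N) (Fin N) K) *ᵥ v) i)) =
      (σ.mapMatrix (x : Matrix (Fin N) (Fin N) K)) *ᵥ (fun i => σ (v i)) := by
    funext i
    rw [Matrix.mulVec, Matrix.mulVec, dotProduct, dotProduct, map_sum]
    refine Finset.sum_congr rfl fun j _ => ?_
    rw [map_mul]
    rfl
  have h1 : σ.mapMatrix ((gi N K x : GS N K) : Matrix (Fin N) (Fin N) K) =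
      (σ.mapMatrix (((x⁻¹ : GS N K)) : Matrix (Fin N) (Fin N) K))ᵀ := rfl
  have h2 : σ.mapMatrix (((x⁻¹ : GS N K)) : Matrix (Fin N) (Fin N) K) *
      σ.mapMatrix (x : Matrix (Fin N) (Fin N) K) = 1 := by
    have h3 : (((x⁻¹ : GS N K)) : Matrix (Fin N) (Fin N) K) * (x : Matrix (Fin N) (Fin N) K) = 1 :=
      congrArg (fun g : GS N K => (g : Matrix (Fin N) (Fin N) K)) (inv_mul_cancel x)
    exact ((map_mul σ.mapMatrix _ _).symm.trans (congrArg _ h3)).trans (map_one _)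
  rw [hmap, h1, dotProduct_mulVec, vecMul_transpose, mulVec_mulVec, h2, one_mulVec]

variable {K : Type*} [Field K] {d : ℕ} {G : Type*} [Group G] {L : Subgroup G}
variable {π : _root_.SpecialLinearGroup K (Fin d → K) →* L}

/-- `r` acts on `L` through a graph automorphism. -/
def GActs (π : _root_.SpecialLinearGroup K (Fin d → K) →* L) (r : G) (σ : K →+* K)
    (β : (Fin d → K) → (Fin d → K) → K)
    (F : _root_.SpecialLinearGroup K (Fin d → K) →* _root_.SpecialLinearGroup K (Fin d → K)) :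
    Prop :=
  (∀ x y z, β (x + y) z = β x z + β y z) ∧ (∀ (c : K) x y, β (c • x) y = σ c * β x y) ∧
  (∀ x y z, β x (y + z) = β x y + β x z) ∧ (∀ (c : K) x y, β x (c • y) = c * β x y) ∧
  (∀ x, x ≠ 0 → ∃ y, β x y ≠ 0) ∧
  (∀ (x : _root_.SpecialLinearGroup K (Fin d → K)) v w, β (x v) (F x w) = β v w) ∧
  ∀ x : _root_.SpecialLinearGroup K (Fin d → K), r * (π x : G) * r⁻¹ = π (F x)

/-- **Semilinear or graph.** -/
theorem acts_or_graph [Finite K] (hd : 3 ≤ d) (hπ : Function.Surjective π) (hk : π.ker ≤ center _)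
    {r : G} (hr : r ∈ normalizer (L : Set G)) :
    (∃ (σ : RingAut K) (g : Equiv.Perm (Fin d → K)), Acts π r σ g) ∨
    ∃ (σ : K →+* K) (β : (Fin d → K) → (Fin d → K) → K)
      (F : _root_.SpecialLinearGroup K (Fin d → K) →* _root_.SpecialLinearGroup K (Fin d → K)),
      GActs π r σ β F := by
  obtain ⟨n, rfl⟩ : ∃ n, d = n + 1 := ⟨d - 1, by omega⟩
  let ι := Matrix.SpecialLinearGroup.toLin'_equiv (R := K) (n := Fin (n + 1))
  have hι : ∀ (x : GS (n + 1) K) (v : Fin (n + 1) → K),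
      (ι x) v = Matrix.mulVec (x : Matrix (Fin (n + 1)) (Fin (n + 1)) K) v := fun x v => rfl
  let π' : GS (n + 1) K →* L := π.comp ι.toMonoidHom
  have hπ' : Function.Surjective π' := hπ.comp ι.surjective
  have hk' : π'.ker ≤ center (GS (n + 1) K) := by
    intro x hx
    have h1 : ι x ∈ center (_root_.SpecialLinearGroup K (Fin (n + 1) → K)) := hk hx
    rw [mem_center_iff] at h1 ⊢
    intro y
    apply ι.injective
    rw [map_mul, map_mul]
    exact h1 (ι y)
  let α : MulAut L := L.normalizerMonoidHom ⟨r, hr⟩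
  have hα : ∀ l : L, ((α l : L) : G) = r * l * r⁻¹ := fun l => rfl
  rcases semi_or_graph (by omega) hπ' hk' α with ⟨X, Y, hXY, σ, hg⟩ | ⟨X, Y, hXY, σ, hg⟩
  · left
    obtain ⟨σ', g, h1, h2⟩ := exists_semi hXY σ
    refine ⟨σ', g.toEquiv, g.map_add, h1, fun x => ?_, fun x y hxy => ?_⟩
    · obtain ⟨x, rfl⟩ := ι.surjective x
      exact ⟨ι (CJ hXY (Matrix.SpecialLinearGroup.map σ x)), fun v => h2 x v⟩
    obtain ⟨x, rfl⟩ := ι.surjective x
    obtain ⟨y, rfl⟩ := ι.surjective y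
    have h3 : CJ hXY (Matrix.SpecialLinearGroup.map σ x) = y := by
      apply ext_mulVec
      intro w
      obtain ⟨v, rfl⟩ := g.surjective w
      rw [← h2, ← hι, ← hι]
      exact hxy v
    rw [← h3]
    have h4 := congrArg (fun l : L => (l : G)) (hg x)
    exact h4
  · right
    have hYX : Y * X = 1 := mul_eq_one_comm.mp hXY
    let F : _root_.SpecialLinearGroup K (Fin (n + 1) → K) →*
        _root_.SpecialLinearGroup K (Fin (n + 1) → K) :=
      ι.toMonoidHom.comp ((CJ hXY).comp ((Matrix.SpecialLinearGroup.map σ).comp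
        ((gi (n + 1) K).comp ι.symm.toMonoidHom)))
    have hF : ∀ x, F (ι x) = ι (CJ hXY (Matrix.SpecialLinearGroup.map σ (gi (n + 1) K x))) := by
      intro x
      change ι (CJ hXY (Matrix.SpecialLinearGroup.map σ (gi (n + 1) K (ι.symm (ι x))))) = _
      rw [MulEquiv.symm_apply_apply]
    refine ⟨σ, fun v w => (fun i => σ (v i)) ⬝ᵥ (Y *ᵥ w), F, fun x y z => ?_, fun c x y => ?_,
      fun x y z => ?_, fun c x y => ?_, fun x hx => ?_, fun x v w => ?_, fun x => ?_⟩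
    · change (fun i => σ ((x + y) i)) ⬝ᵥ (Y *ᵥ z) = (fun i => σ (x i)) ⬝ᵥ (Y *ᵥ z) +
        (fun i => σ (y i)) ⬝ᵥ (Y *ᵥ z)
      rw [← add_dotProduct]
      congr 1
      funext i
      exact map_add σ _ _
    · change (fun i => σ ((c • x) i)) ⬝ᵥ (Y *ᵥ y) = σ c * ((fun i => σ (x i)) ⬝ᵥ (Y *ᵥ y))
      rw [← smul_eq_mul, ← smul_dotProduct]
      congr 1
      funext i
      exact map_mul σ _ _
    · change (fun i => σ (x i)) ⬝ᵥ (Y *ᵥ (y + z)) = _ + _
      rw [mulVec_add, dotProduct_add]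
    · change (fun i => σ (x i)) ⬝ᵥ (Y *ᵥ (c • y)) = c * _
      rw [mulVec_smul, dotProduct_smul, smul_eq_mul]
    · obtain ⟨i, hi⟩ := Function.ne_iff.mp hx
      refine ⟨X *ᵥ (Pi.single i 1), ?_⟩
      change (fun i => σ (x i)) ⬝ᵥ (Y *ᵥ (X *ᵥ (Pi.single i 1))) ≠ 0
      rw [mulVec_mulVec, hYX, one_mulVec, dotProduct_single, mul_one]
      exact (map_ne_zero σ).mpr hi
    · obtain ⟨x, rfl⟩ := ι.surjective x
      rw [hF]
      change (fun i => σ (((x : Matrix (Fin (n + 1)) (Fin (n + 1)) K) *ᵥ v) i)) ⬝ᵥ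
        (Y *ᵥ ((X * σ.mapMatrix ((gi (n + 1) K x : GS (n + 1) K) :
          Matrix (Fin (n + 1)) (Fin (n + 1)) K) * Y) *ᵥ w)) = (fun i => σ (v i)) ⬝ᵥ (Y *ᵥ w)
      rw [mulVec_mulVec, ← mul_assoc, ← mul_assoc, hYX, one_mul, ← mulVec_mulVec, map_gi_dot]
    · obtain ⟨x, rfl⟩ := ι.surjective x
      rw [hF]
      exact congrArg (fun l : L => (l : G)) (hg x)

end Vale.Agent.P180.R2.H259.Tg
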