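import Vale.Agent.P180.R2.H471.Au13
import Vale.Agent.P180.R2.H259.Tg.G1
import Vale.Agent.P180.R2.H259.Tg.G3

/-!
P180: the action on a central quotient of `SL(d, K)` of a `2`-group which centralises its
intersection with the quotient.
-/

set_option linter.all false

namespace Vale.Agent.P180.R2.H259.Tg

open Module Subgroup Vale.Agent.P180 Vale.Agent.P180.H768.Gd Vale.Agent.P180.R2.H799
  Vale.Agent.P180.R2.H954
open Vale.Agent.P180.R2.H471.Au
open Vale.Agent.P180.R2.H589.Sch (Pel pel_unique)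
open Vale.Agent.P180.R2.H47.PairP (orderOf_center_dvd exists_lift_elt center_of_map)

variable {k : Type*} [Field k] {p : ℕ} [hp : Fact p.Prime] [CharP k p]
variable {K : Type} [Field K] [Finite K] {d : ℕ} {G : Type} [Group G] [Finite G]
variable {L R : Subgroup G} {π : SpecialLinearGroup K (Fin d → K) →* L}

/-- the central closure of the preimage of `R ∩ L` -/
theorem pclosed_of_ne [IsAlgClosed k] (hR : IsPGroup p R)
    (hn : ∀ x ∈ R, ∀ s ∈ L, x * s * x⁻¹ ∈ L) (hd : 3 ≤ d) (hpK : ¬ p ∣ Nat.card K)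
    (hcop : ¬ (p ∣ d ∧ p ∣ Nat.card K - 1)) (hπ : Function.Surjective π)
    (hk : π.ker ≤ Subgroup.center _)
    (hcc : ∀ x ∈ R, ∀ y ∈ R, y ∈ L → ∀ l ∈ L,
      (x * y * x⁻¹ * y⁻¹) * l = l * (x * y * x⁻¹ * y⁻¹))
    {e z : MonoidAlgebra k G} (heL : e ∈ SubAlg k L) (heF : e ∈ Fix (cj k G) L) (hee : e * e = e)
    (hbr : br R e ≠ 0) (hzF : z ∈ Fix (cj k G) (L ⊓ R)) (hez : e = tr (cj k G) (L ⊓ R) L z)
    {Q : Subgroup (SpecialLinearGroup K (Fin d → K))} (hQp : IsPGroup p Q)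
    (hQR : Q.map π = R.subgroupOf L) :
    PClosed p Q ∧ ∀ r ∈ R, ∀ w ∈ Q, ∀ y, (∃ j, y ^ p ^ j = 1) →
      r * (π w : G) * r⁻¹ = π y → y = w := by
  haveI : Finite (SpecialLinearGroup K (Fin d → K)) := BN.finite_sl
  have hkp : ¬ p ∣ Nat.card π.ker := not_dvd_ker hcop hk
  have hpel : ∀ w ∈ Q, ∃ j, w ^ p ^ j = 1 := fun w hw => by
    obtain ⟨j, hj⟩ := hQp ⟨w, hw⟩
    exact ⟨j, congrArg Subtype.val hj⟩
  have hmemR : ∀ w ∈ Q, (π w : G) ∈ R := fun w hw => by
    have h1 : π w ∈ R.subgroupOf L := hQR ▸ ⟨w, hw, rfl⟩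
    exact h1
  have hmemQ : ∀ w, (∃ j, w ^ p ^ j = 1) → (π w : G) ∈ R → w ∈ Q := by
    intro w hw hwR
    have h1 : π w ∈ Q.map π := by rw [hQR]; exact hwR
    obtain ⟨q, hq, hqw⟩ := h1
    rw [← pel_unique (p := p) hk hkp (hpel q hq) hw hqw]
    exact hq
  have hcen : ∀ x ∈ R, ∀ y ∈ Q, ∀ y' : L, (y' : G) = x * (π y : G) * x⁻¹ →
      y' * (π y)⁻¹ ∈ center L := by
    intro x hx y hy y' hy'
    rw [mem_center_iff]
    rintro ⟨l, hl⟩
    apply Subtype.ext
    change l * ((y' : G) * (π y : G)⁻¹) = (y' : G) * (π y : G)⁻¹ * l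
    rw [hy']
    exact (hcc x hx _ (hmemR y hy) (π y).2 l hl).symm
  have hQab : ∀ x ∈ Q, ∀ y ∈ Q, x * y = y * x := by
    intro x hx y hy
    have h1 : π ((x * y * x⁻¹) * y⁻¹) ∈ center L := by
      rw [map_mul, map_inv]
      refine hcen (π x) (hmemR x hx) y hy _ ?_
      rw [map_mul, map_mul, map_inv]
      rfl
    have h2 : ∃ j, (x * y * x⁻¹) ^ p ^ j = 1 := by
      obtain ⟨j, hj⟩ := hpel y hy
      exact ⟨j, by rw [conj_pow, hj, mul_one, mul_inv_cancel]⟩
    have h3 := eq_of_central (p := p) hd hcop hk h2 (hpel y hy) h1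
    calc x * y = (x * y * x⁻¹) * x := by group
      _ = y * x := by rw [h3]
  -- the central `p`-elements of the centraliser
  have hQC : PClosed p Q := by
    let P : Subgroup (SpecialLinearGroup K (Fin d → K)) :=
      { carrier := {w | (∃ j, w ^ p ^ j = 1) ∧ (∀ q ∈ Q, w * q = q * w) ∧
          ∀ h, (∀ q ∈ Q, h * q = q * h) → h * w = w * h}
        one_mem' := ⟨⟨0, one_pow _⟩, fun q _ => by rw [one_mul, mul_one],
          fun h _ => by rw [one_mul, mul_one]⟩
        mul_mem' := by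
          rintro a b ⟨⟨i, hi⟩, ha1, ha2⟩ ⟨⟨j, hj⟩, hb1, hb2⟩
          have hab : Commute a b := hb2 a ha1
          refine ⟨⟨i + j, ?_⟩, fun q hq => ?_, fun h hh => ?_⟩
          · rw [hab.mul_pow, pow_add, pow_mul, hi, one_pow, one_mul, mul_comm (p ^ i), pow_mul,
              hj, one_pow]
          · rw [mul_assoc, hb1 q hq, ← mul_assoc, ha1 q hq, mul_assoc]
          · rw [← mul_assoc, ha2 h hh, mul_assoc, hb2 h hh, mul_assoc]
        inv_mem' := by
          rintro a ⟨⟨i, hi⟩, ha1, ha2⟩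
          refine ⟨⟨i, by rw [inv_pow, hi, inv_one]⟩, fun q hq => ?_, fun h hh => ?_⟩
          · have h1 : Commute a q := ha1 q hq
            exact h1.inv_left
          · have h1 : Commute h a := ha2 h hh
            exact h1.inv_right }
    have hQP : Q ≤ P := fun q hq => ⟨hpel q hq, fun q' hq' => hQab q hq q' hq',
      fun h hh => hh q hq⟩
    let P' : Subgroup G := (P.map π).map L.subtype
    have hPp : IsPGroup p P := by
      rintro ⟨w, ⟨j, hj⟩, hw⟩
      exact ⟨j, Subtype.ext hj⟩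
    have hle : Nat.card P' ≤ Nat.card (L ⊓ R : Subgroup G) := by
      obtain ⟨c, hc, hec⟩ := exists_coeff_of_br hbr
      refine H12.Sl.card_le_of_normal (C := L ⊓ R) (hR.to_le inf_le_right) heL heF hee inf_le_left
        (br_ne_zero_of_coeff (c := c) (fun h hh => hc h hh.2) hec)
        ((hPp.map π).map L.subtype) ?_ ?_ inf_le_left hzF hez
      · rintro _ ⟨_, ⟨w, hw, rfl⟩, rfl⟩
        refine Subgroup.mem_inf.mpr ⟨(π w).2, Subgroup.mem_centralizer_iff.mpr ?_⟩
        rintro y ⟨hyL, hyR⟩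
        have h1 : (⟨y, hyL⟩ : L) ∈ Q.map π := by rw [hQR]; exact hyR
        obtain ⟨q, hq, hqy⟩ := h1
        have h2 : y = (π q : G) := (congrArg Subtype.val hqy).symm
        change y * (π w : G) = (π w : G) * y
        rw [h2, ← Subgroup.coe_mul, ← Subgroup.coe_mul, ← map_mul, ← map_mul, hw.2.1 q hq]
      · rintro h ⟨hhL, hhC⟩ _ ⟨_, ⟨w, hw, rfl⟩, rfl⟩
        obtain ⟨g, hg⟩ := hπ ⟨h, hhL⟩
        have h1 : ∀ q ∈ Q, g * q = q * g := by
          intro q hq
          have h2 : π (g * q * g⁻¹) = π q := by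
            rw [map_mul, map_mul, map_inv, hg]
            apply Subtype.ext
            change h * (π q : G) * h⁻¹ = (π q : G)
            have h3 := (Subgroup.mem_centralizer_iff.mp hhC) (π q : G)
              ⟨(π q).2, hmemR q hq⟩
            rw [← h3, mul_inv_cancel_right]
          have h4 : ∃ j, (g * q * g⁻¹) ^ p ^ j = 1 := by
            obtain ⟨j, hj⟩ := hpel q hq
            exact ⟨j, by rw [conj_pow, hj, mul_one, mul_inv_cancel]⟩
          have h5 := pel_unique (p := p) hk hkp h4 (hpel q hq) h2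
          calc g * q = (g * q * g⁻¹) * g := by group
            _ = q * g := by rw [h5]
        have h2 := hw.2.2 g h1
        refine ⟨π w, ⟨w, hw, rfl⟩, ?_⟩
        change (π w : G) = h * (π w : G) * h⁻¹
        have h3 : h * (π w : G) = (π w : G) * h := by
          have h4 := congrArg (fun x => ((π x : L) : G)) h2
          simp only [map_mul, hg] at h4
          exact h4
        rw [h3, mul_inv_cancel_right]
    have hPQ : P ≤ Q := by
      have h1 : Nat.card P ≤ Nat.card P' := by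
        refine Nat.card_le_card_of_injective
          (fun w : P => (⟨(π w : G), π w, ⟨w, w.2, rfl⟩, rfl⟩ : P')) ?_
        intro w w' hww
        have h2 : ((π (w : _) : L) : G) = ((π (w' : _) : L) : G) :=
          congrArg (fun t : P' => (t : G)) hww
        exact Subtype.ext (pel_unique (p := p) hk hkp w.2.1 w'.2.1 (Subtype.ext h2))
      have h2 : Nat.card (L ⊓ R : Subgroup G) ≤ Nat.card Q := by
        refine Nat.card_le_card_of_surjective
          (fun q : Q => (⟨(π (q : _) : G), (π (q : _)).2, hmemR q q.2⟩ : (L ⊓ R : Subgroup G))) ?_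
        rintro ⟨y, hyL, hyR⟩
        have h1 : (⟨y, hyL⟩ : L) ∈ Q.map π := by rw [hQR]; exact hyR
        obtain ⟨q, hq, hqy⟩ := h1
        exact ⟨⟨q, hq⟩, Subtype.ext (congrArg (fun t : L => (t : G)) hqy)⟩
      exact (Subgroup.eq_of_le_of_card_ge hQP (h1.trans (hle.trans h2))).ge
    intro u hu H w hw hwH
    have hcw : ∀ h : SpecialLinearGroup K (Fin d → K), h * u = u * h → h * w = w * h := by
      intro h hh
      apply en_inj
      rw [en_mul, en_mul, hwH]
      have h1 : Commute (en h) (en u) := by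
        change en h * en u = en u * en h
        rw [← en_mul, ← en_mul, hh]
      exact comm_aeval h1 H
    refine hPQ ⟨hw, fun q hq => (hcw q (hQab q hq u hu)).symm, fun h hh => hcw h (hh u hu)⟩
  refine ⟨hQC, fun r hr w hw y hy h => ?_⟩
  refine eq_of_central (p := p) hd hcop hk hy (hpel w hw) ?_
  rw [map_mul, map_inv]
  exact hcen r hr w hw _ h.symm

/-- **First case**: `R ∩ L ≠ 1`. -/
theorem inner_two [IsAlgClosed k] [CharP k 2] (hR : IsPGroup 2 R)
    (hn : ∀ x ∈ R, ∀ s ∈ L, x * s * x⁻¹ ∈ L) (hd : 3 ≤ d) (h2d : ¬ 2 ∣ d)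
    (h4 : 4 ∣ Nat.card K - 1) (hπ : Function.Surjective π) (hk : π.ker ≤ Subgroup.center _)
    (hcc : ∀ x ∈ R, ∀ y ∈ R, y ∈ L → ∀ l ∈ L,
      (x * y * x⁻¹ * y⁻¹) * l = l * (x * y * x⁻¹ * y⁻¹))
    {e z : MonoidAlgebra k G} (heL : e ∈ SubAlg k L) (heF : e ∈ Fix (cj k G) L) (hee : e * e = e)
    (hbr : br R e ≠ 0) (hzF : z ∈ Fix (cj k G) (L ⊓ R)) (hez : e = tr (cj k G) (L ⊓ R) L z)
    {Q : Subgroup (SpecialLinearGroup K (Fin d → K))} (hQp : IsPGroup 2 Q)
    (hQR : Q.map π = R.subgroupOf L) (hQ1 : Q ≠ ⊥) :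
    ∀ r ∈ R, ∃ s ∈ L, ∃ c ∈ Subgroup.centralizer (L : Set G), r = s * c := by
  haveI : Fact (Nat.Prime 2) := ⟨Nat.prime_two⟩
  have hcop : ¬ (2 ∣ d ∧ 2 ∣ Nat.card K - 1) := fun h => h2d h.1
  have hpK : ¬ 2 ∣ Nat.card K := by
    intro h
    have h1 : 1 < Nat.card K := Finite.one_lt_card
    omega
  obtain ⟨hQC, hfix⟩ := pclosed_of_ne (p := 2) hR hn hd hpK hcop hπ hk hcc heL heF hee hbr hzF hez
    hQp hQR
  have hpel : ∀ w ∈ Q, ∃ j, w ^ 2 ^ j = 1 := fun w hw => by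
    obtain ⟨j, hj⟩ := hQp ⟨w, hw⟩
    exact ⟨j, congrArg Subtype.val hj⟩
  intro r hr
  obtain ⟨s, hs⟩ := hR ⟨r, hr⟩
  have hs : r ^ 2 ^ s = 1 := congrArg Subtype.val hs
  rcases acts_or_graph hd hπ hk (mem_normalizer_of hn hr) with ⟨σ, g, hA⟩ | ⟨σ, β, F, hA⟩
  · have hσ := hA.pow_eq_one (by omega) hk hs
    let g' : (Fin d → K) ≃+ (Fin d → K) := AddEquiv.mk' g hA.1
    have hgQ : ∀ w ∈ Q, ∀ v, g' (w v) = w (g' v) := by
      intro w hw v
      obtain ⟨y, hy⟩ := hA.2.2.1 w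
      have h1 := hA.2.2.2 w y hy
      have h2 : y = w := by
        refine hfix r hr w hw y ?_ h1
        obtain ⟨j, hj⟩ := hpel w hw
        exact ⟨j, pow_eq_one_of_semi hy hj⟩
      have h3 := hy v
      rw [h2] at h3
      exact h3
    have hσ1 : σ = 1 := sigma_eq_one (cast_ne hpK) (by rw [Module.finrank_fin_fun]; exact hcop) hQp
      hQ1 hQC (g := g') hA.2.1 hgQ hσ
    rw [hσ1] at hA
    obtain ⟨s₀, hs₀⟩ := hA.inner (by omega) hk hcop hs
    obtain ⟨c, hc, hrc⟩ := mem_sup_of_inner (s₀ := π s₀) hπ hs₀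
    exact ⟨_, (π s₀).2, c, hc, hrc⟩
  · exfalso
    obtain ⟨ha1, hs1, ha2, hs2, hnd, hβ, hF⟩ := hA
    refine no_graph h4 (by rw [Module.finrank_fin_fun]; exact h2d) hQp hQ1 hQC ha1 hs1 ha2 hs2 hnd
      fun w hw x y => ?_
    have h1 : F w = w := by
      refine hfix r hr w hw (F w) ?_ (hF w)
      obtain ⟨j, hj⟩ := hpel w hw
      exact ⟨j, by rw [← map_pow, hj, map_one]⟩
    have h2 := hβ w x y
    rwa [h1] at h2

end Vale.Agent.P180.R2.H259.Tg
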