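import Vale.Agent.P180.R2.H471.Au15
import Vale.Agent.P180.R2.H259.Tg.G4

/-!
P180: the corner property of tame pairs `(L, D ∩ L)`, `L` a central quotient of `SL(d, K)`, if
`N_D(L)` acts trivially on `D ∩ L` modulo the centre, also for `p = 2` if `4` divides `|K| - 1`.
-/

set_option linter.all false

namespace Vale.Agent.P180.R2.H259.Tg

open Module Subgroup Vale.Agent.P180 Vale.Agent.P180.H768.Gd Vale.Agent.P180.R2.H799
  Vale.Agent.P180.R2.H954 Vale.Agent.P180.R2.H365 Vale.Agent.P180.R2.H47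
open Vale.Agent.P180.R2.H471.Au

universe u

/-- If `e` is the block of `kL` below a block with `br_D ≠ 0` then the defect groups of `e` are at
least as large as `D ∩ L`. -/
theorem inf_eq_of_tr {k : Type u} [Field k] {p : ℕ} [Fact p.Prime] [CharP k p]
    {G : Type} [Group G] [Finite G] {D L R : Subgroup G} {b e z : MonoidAlgebra k G}
    (hD : IsPGroup p D) (hRD : R ≤ D) (hbF : b ∈ Fix (cj k G) ⊤) (hb : br D b ≠ 0)
    (he : Below b L e) (hzF : z ∈ Fix (cj k G) (L ⊓ R)) (hez : e = tr (cj k G) (L ⊓ R) L z) :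
    L ⊓ R = L ⊓ D := by
  have hLD : IsPGroup p (L ⊓ D : Subgroup G) := hD.to_le inf_le_right
  have h1 : br (L ⊓ D) e ≠ 0 := by
    intro h0
    apply br_ne_zero_mono (inf_le_right : L ⊓ D ≤ D) hb
    rw [← he.mul, br_mul hLD (Fix_mono _ inf_le_left he.block.mem.2) (Fix_mono _ le_top hbF), h0,
      zero_mul]
  obtain ⟨c, hc, hec⟩ := exists_coeff_of_br h1
  obtain ⟨x, -, hx⟩ := exists_conj_of_coeff (N := L) (inf_le_left : L ⊓ R ≤ L)
    (inf_le_left : L ⊓ D ≤ L) hLD hzF hez hc hec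
  refine Subgroup.eq_of_le_of_card_ge (inf_le_inf_left _ hRD) ?_
  refine Nat.card_le_card_of_injective (fun v : (L ⊓ D : Subgroup G) =>
    (⟨x⁻¹ * v * x, hx v v.2⟩ : (L ⊓ R : Subgroup G))) ?_
  intro v w h
  have h1 : x⁻¹ * (v : G) * x = x⁻¹ * (w : G) * x :=
    congrArg (fun y : (L ⊓ R : Subgroup G) => (y : G)) h
  exact Subtype.ext (mul_left_cancel (mul_right_cancel h1))

/-- `L` is a central quotient of `SL(d, K)`, `K` a finite field, `d ≥ 3`, `p` divides neither `|K|`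
nor both `d` and `|K| - 1`, and `4` divides `|K| - 1` if `p = 2`. -/
def IsSLd (p : ℕ) (L : Type) [Group L] : Prop :=
  ∃ (K : Type) (_ : Field K) (_ : Finite K) (d : ℕ) (π : SpecialLinearGroup K (Fin d → K) →* L),
    3 ≤ d ∧ ¬ p ∣ Nat.card K ∧ ¬ (p ∣ d ∧ p ∣ Nat.card K - 1) ∧ (p ≠ 2 ∨ 4 ∣ Nat.card K - 1) ∧
      Function.Surjective π ∧ π.ker ≤ Subgroup.center _

/-- **The corner property of central quotients of `SL(d, K)`**, `p = 2`. -/
theorem corP_two {k : Type u} [Field k] [IsAlgClosed k] {C : ℕ} [CharP k 2]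
    {G : Type} [Group G] [Finite G] {D L : Subgroup G} (hD : IsPGroup 2 D)
    {K : Type} [Field K] [Finite K] {d : ℕ} {π : SpecialLinearGroup K (Fin d → K) →* L}
    (hd : 3 ≤ d) (h2d : ¬ 2 ∣ d) (h4 : 4 ∣ Nat.card K - 1) (hπ : Function.Surjective π)
    (hk : π.ker ≤ Subgroup.center _)
    (hcc : ∀ x ∈ D, x ∈ Subgroup.normalizer (L : Set G) → ∀ y ∈ D, y ∈ L → ∀ l ∈ L,
      (x * y * x⁻¹ * y⁻¹) * l = l * (x * y * x⁻¹ * y⁻¹))
    (hr : ∃ x ∈ D, x ∈ L ∧ ¬ ∀ y ∈ L, x * y = y * x)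
    {b : MonoidAlgebra k G} (hbF : b ∈ Fix (cj k G) ⊤) (hb : br D b ≠ 0)
    (hB : ∀ R : Subgroup G, R ≤ D → R ≤ L ⊔ Subgroup.centralizer (L : Set G) →
      H365.CorP 2 C b R L) : H365.CorP 2 C b D L := by
  haveI : Fact (Nat.Prime 2) := ⟨Nat.prime_two⟩
  haveI : Finite (SpecialLinearGroup K (Fin d → K)) := BN.finite_sl
  rintro R hRD hn e he heR hbr ⟨z, hz, hzF, hez⟩ hez'
  have hR : IsPGroup 2 R := hD.to_le hRD
  have heL : e ∈ SubAlg k L := he.block.mem.1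
  have heF : e ∈ Fix (cj k G) L := he.block.mem.2
  have hee : e * e = e := he.block.idem
  have hcc' : ∀ x ∈ R, ∀ y ∈ R, y ∈ L → ∀ l ∈ L,
      (x * y * x⁻¹ * y⁻¹) * l = l * (x * y * x⁻¹ * y⁻¹) := fun x hx y hy hyL =>
    hcc x (hRD hx) (mem_normalizer_of hn hx) y (hRD hy) hyL
  obtain ⟨Q, hQp, hQR⟩ : ∃ Q : Subgroup (SpecialLinearGroup K (Fin d → K)), IsPGroup 2 Q ∧
      Q.map π = R.subgroupOf L := BN.exists_lift (p := 2) π hπ
    (hR.comap_of_injective L.subtype L.subtype_injective : IsPGroup 2 (R.subgroupOf L))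
  have hQ1 : Q ≠ ⊥ := by
    intro hQ1
    have hbot : L ⊓ R = ⊥ := by
      rw [hQ1, Subgroup.map_bot] at hQR
      rw [eq_bot_iff]
      rintro x ⟨hxL, hxR⟩
      have h1 : (⟨x, hxL⟩ : L) ∈ R.subgroupOf L := hxR
      rw [← hQR, Subgroup.mem_bot] at h1
      exact Subgroup.mem_bot.mpr (congrArg Subtype.val h1)
    rw [inf_eq_of_tr hD hRD hbF hb he hzF hez] at hbot
    obtain ⟨x, hxD, hxL, hx⟩ := hr
    apply hx
    have h1 : x ∈ L ⊓ D := ⟨hxL, hxD⟩
    rw [hbot, Subgroup.mem_bot] at h1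
    intro y _
    rw [h1, one_mul, mul_one]
  have h1 := inner_two hR hn hd h2d h4 hπ hk hcc' heL heF hee hbr hzF hez hQp hQR hQ1
  have h2 : R ≤ L ⊔ Subgroup.centralizer (L : Set G) := by
    intro r hr
    obtain ⟨s, hs, c, hc, rfl⟩ := h1 r hr
    exact Subgroup.mul_mem _ (Subgroup.mem_sup_left hs) (Subgroup.mem_sup_right hc)
  exact hB R hRD h2 R le_rfl hn e he heR hbr ⟨z, hz, hzF, hez⟩ hez'

/-- **The corner property of tame pairs**, `L` a central quotient of `SL(d, K)`, `d ≥ 3`, `p` not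
dividing `|K|` nor `gcd(d, |K| - 1)`, and `4` dividing `|K| - 1` if `p = 2`: no hypothesis on outer
automorphisms if the commutators `[x, y]`, `x ∈ N_D(L)`, `y ∈ D ∩ L`, centralise `L`. -/
theorem corP_abTame {k : Type u} [Field k] [IsAlgClosed k] {p m n : ℕ} [Fact p.Prime] [CharP k p]
    {G : Type} [Group G] [Finite G] {D L : Subgroup G} (hD : IsPGroup p D)
    (hDn : Nat.card D ≤ n) (hL : IsSLd p L)
    (hcc : ∀ x ∈ D, x ∈ Subgroup.normalizer (L : Set G) → ∀ y ∈ D, y ∈ L → ∀ l ∈ L,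
      (x * y * x⁻¹ * y⁻¹) * l = l * (x * y * x⁻¹ * y⁻¹))
    (h : TamePair p m L (D.subgroupOf L))
    (hr : ∃ x ∈ D, x ∈ L ∧ ¬ ∀ y ∈ L, x * y = y * x)
    {b : MonoidAlgebra k G} (hbF : b ∈ Fix (cj k G) ⊤) (hb : br D b ≠ 0) :
    H365.CorP p (abP p n m) b D L := by
  obtain ⟨K, _, _, d, π, hd, hpK, hcop, h2, hπ, hk⟩ := hL
  by_cases hp2 : p = 2
  · subst hp2
    have h4 : 4 ∣ Nat.card K - 1 := h2.resolve_left fun h => h rfl
    refine (corP_two (C := PairP.cP 2 n m) hD hd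
      (fun h => hcop ⟨h, (by norm_num : (2 : ℕ) ∣ 4).trans h4⟩) h4 hπ hk hcc hr
      hbF hb fun R hRD hRL => ?_).mono (le_max_left _ _)
    refine PairP.corP_tamePair (hD.to_le hRD) ?_ ?_ (inf_le_left.trans hRL) b
    · exact (Nat.card_le_card_of_injective _ (Subgroup.inclusion_injective hRD)).trans hDn
    · exact PairP.ck_tame.sub (fun x hx => hRD hx) h
  · exact Vale.Agent.P180.R2.H471.Au.corP_abTame hD hDn hp2
      ⟨K, inferInstance, inferInstance, d, π, hd, hpK, hcop, hπ, hk⟩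
      hcc h b

end Vale.Agent.P180.R2.H259.Tg
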